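import Crest.Agent.R192.Iface
import Crest.Prelude.Def_GroupVNA

/-!
R192/Z: the idempotent statement follows from the `ℓ¹`-Bass statement (Kaplansky's positivity of the trace and
specialisation of the coefficients).
-/

set_option autoImplicit false

open Crest.AlgebraR.L1 Crest.OpAlg
open scoped ComplexConjugate InnerProductSpace

noncomputable section

namespace Crest.Agent.R192

namespace Z

variable {G : Type} [Group G]

/-- Kaplansky: an idempotent of trace zero vanishes -/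
theorem kap {f : MonoidAlgebra ℂ G} (hf : f * f = f) (h1 : f.coeff 1 = 0) : f = 0 := by
  classical
  let T : ltwo G →L[ℂ] ltwo G := ∑ w ∈ f.coeff.support, f.coeff w • leftRegular w
  have hT : ∀ (ξ : ltwo G) x, T ξ x = ∑ w ∈ f.coeff.support, f.coeff w * ξ (w⁻¹ * x) := by
    intro ξ x
    simp only [T, FunLike.coe_sum, Finset.sum_apply, lp.coeFn_sum]
    rfl
  let K : Submodule ℂ (ltwo G) := (T - 1).ker
  have hK : ∀ ξ : ltwo G, ξ ∈ K ↔ ∀ x, T ξ x = ξ x := fun ξ =>
    (show ξ ∈ K ↔ T ξ - ξ = 0 from Iff.rfl).trans (sub_eq_zero.trans (lp.ext_iff.trans funext_iff))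
  have : CompleteSpace K := ContinuousLinearMap.completeSpace_ker _
  let δ : ltwo G := lp.single 2 (1 : G) (1 : ℂ)
  let η : ltwo G := K.starProjection δ
  have hη : η ∈ K := K.starProjection_apply_mem δ
  have horth : ∀ ξ ∈ K, ξ 1 = ⟪η, ξ⟫_ℂ := fun ξ hξ => by
    have h := K.starProjection_inner_eq_zero δ ξ hξ
    rw [inner_sub_left, lp.inner_single_left, sub_eq_zero] at h
    simpa using h
  let ρ : G → ltwo G ≃ₗᵢ[ℂ] ltwo G := fun w => ltwoReindex (Equiv.mulRight w)
  have hρ : ∀ w (ξ : ltwo G) x, ρ w ξ x = ξ (x * w) := fun _ _ _ => rfl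
  have hρK : ∀ w, ∀ ξ ∈ K, ρ w ξ ∈ K := fun w ξ hξ => (hK _).2 fun x => by
    rw [hρ, ← (hK ξ).1 hξ, hT, hT]
    simp only [hρ, mul_assoc]
  have hval : ∀ w, ∀ ξ ∈ K, ξ w = ⟪η, ρ w ξ⟫_ℂ := fun w ξ hξ => by
    rw [← horth _ (hρK w ξ hξ), hρ, one_mul]
  have hsa : ∀ w, η w⁻¹ = conj (η w) := fun w => by
    have e : ρ w (ρ w⁻¹ η) = η := lp.ext (funext fun x => by rw [hρ, hρ, mul_inv_cancel_right])
    rw [hval w η hη, hval w⁻¹ η hη, ← (ρ w).inner_map_map, e, inner_conj_symm]
  have hF : ∀ x, T δ x = f.coeff x := fun x => by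
    rw [hT, Finset.sum_eq_single x]
    · simp [δ]
    · intro w _ hw
      have : δ (w⁻¹ * x) = 0 :=
        lp.single_apply_ne (E := fun _ : G => ℂ) 2 (1 : G) (1 : ℂ) fun h => hw (inv_mul_eq_one.1 h)
      rw [this, mul_zero]
    · intro hx
      rw [Finsupp.notMem_support_iff.1 hx, zero_mul]
  have hFK : T δ ∈ K := (hK _).2 fun x => by
    rw [hT, hF, ← congrArg (fun a : MonoidAlgebra ℂ G => a.coeff x) hf, MonoidAlgebra.coeff_mul_apply_left]
    simp only [hF]
    rfl
  have h0 : η = 0 := by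
    rw [← inner_self_eq_zero (𝕜 := ℂ), ← horth η hη, ← (hK η).1 hη, hT, ← h1, ← hF, horth _ hFK,
      lp.inner_eq_tsum, tsum_eq_sum (s := f.coeff.support)]
    · refine Finset.sum_congr rfl fun w _ => ?_
      rw [mul_one, hsa, hF]
      rfl
    · intro w hw
      rw [hF, Finsupp.notMem_support_iff.1 hw, inner_zero_right]
  ext w
  rw [← hF, hval w _ hFK, h0, inner_zero_left]
  rfl

/-- the complex case -/
theorem cplx (h : St92) (hG : ∀ g : G, IsOfFinOrder g → g = 1) {f : MonoidAlgebra ℂ G} (hf : f * f = f) :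
    f = 0 ∨ f = 1 := by
  have hs : HasSum f.coeff (∑ w ∈ f.coeff.support, f.coeff w) :=
    hasSum_sum_of_ne_finset_zero fun w hw => Finsupp.notMem_support_iff.1 hw
  have he : IsL1IdempotentMatrix fun _ _ : Fin 1 => (f.coeff : G → ℂ) := by
    refine ⟨fun _ _ => summable_of_ne_finset_zero (s := f.coeff.support) fun w hw => ?_, fun _ _ x => ?_⟩
    · exact norm_eq_zero.2 (Finsupp.notMem_support_iff.1 hw)
    · change ∑ _k : Fin 1, conv f.coeff f.coeff x = f.coeff x
      rw [Fin.sum_univ_one, conv, tsum_eq_sum (s := f.coeff.support),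
        ← congrArg (fun a : MonoidAlgebra ℂ G => a.coeff x) hf, MonoidAlgebra.coeff_mul_apply_left]
      · rfl
      · intro w hw
        rw [Finsupp.notMem_support_iff.1 hw, zero_mul]
  have h2 : ∑ w ∈ f.coeff.support, f.coeff w = f.coeff 1 := by
    refine (hs.tsum_fiberwise ConjClasses.mk).unique ?_
    have e : ConjClasses.mk ⁻¹' {ConjClasses.mk (1 : G)} = {1} := by
      ext w
      exact ConjClasses.mk_eq_mk_iff_isConj.trans isConj_one_left
    rw [← tsum_singleton (1 : G) f.coeff, ← e]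
    refine hasSum_single (f := fun C : ConjClasses G => ∑' b : (ConjClasses.mk ⁻¹' {C} : Set G), f.coeff b.1) _
      fun C hC => ?_
    obtain ⟨g, rfl⟩ := ConjClasses.mk_surjective C
    have h3 := (h G 1 _ he).2 g fun hg => hC (by rw [hG g hg])
    rw [ConjClasses.carrier_eq_preimage_mk, classTrace] at h3
    simpa only [Fin.sum_univ_one] using h3
  have h3 : MonoidAlgebra.lift ℂ ℂ G 1 f = f.coeff 1 := by
    rw [MonoidAlgebra.lift_apply, ← h2]
    simp [Finsupp.sum]
  have h4 : f.coeff 1 * (f.coeff 1 - 1) = 0 := by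
    rw [mul_sub, mul_one, ← h3, ← map_mul, hf, sub_self]
  rcases mul_eq_zero.1 h4 with h5 | h5
  · exact Or.inl (kap hf h5)
  · refine Or.inr (sub_eq_zero.1 (kap (f := 1 - f) ?_ ?_)).symm
    · rw [mul_sub, sub_mul, sub_mul, hf, mul_one, mul_one, one_mul, sub_self, sub_zero]
    · rw [MonoidAlgebra.coeff_sub, Finsupp.sub_apply, MonoidAlgebra.coeff_one_one, sub_eq_zero.1 h5, sub_self]

theorem exists_hom {K : Type} [Field K] [CharZero K] {s : Set K} (hs : s.Finite) :
    Nonempty (Algebra.adjoin ℚ s →+* ℂ) := by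
  have := Algebra.FiniteType.adjoin_of_finite (R := ℚ) hs
  obtain ⟨m, hm⟩ := Ideal.exists_maximal (Algebra.adjoin ℚ s)
  let := Ideal.Quotient.field m
  have := finite_of_finite_type_of_isJacobsonRing ℚ (Algebra.adjoin ℚ s ⧸ m)
  exact ⟨(IsAlgClosed.lift (R := ℚ) (S := Algebra.adjoin ℚ s ⧸ m) (M := ℂ)).toRingHom.comp
    (Ideal.Quotient.mk m)⟩

/-- fields of characteristic zero -/
theorem field (h : St92) (hG : ∀ g : G, IsOfFinOrder g → g = 1) {K : Type} [Field K] [CharZero K]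
    {e : MonoidAlgebra K G} (he : e * e = e) : e = 0 ∨ e = 1 := by
  by_contra hcon
  obtain ⟨h0, h1⟩ := not_or.1 hcon
  have ex : ∀ a : MonoidAlgebra K G, a ≠ 0 → ∃ w, a.coeff w ≠ 0 := fun a ha => by
    by_contra h2
    exact ha (MonoidAlgebra.ext (Finsupp.ext fun w => not_not.1 fun h3 => h2 ⟨w, h3⟩))
  obtain ⟨a, ha⟩ := ex e h0
  obtain ⟨b, hb⟩ := ex (e - 1) (sub_ne_zero.2 h1)
  let s : Set K := Set.range e.coeff ∪ {(e.coeff a)⁻¹, ((e - 1).coeff b)⁻¹}
  obtain ⟨φ⟩ := exists_hom (s := s) (e.coeff.finite_range.union (Set.toFinite _))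
  have hφ : ∀ x : Algebra.adjoin ℚ s, (x : K) ≠ 0 → (x : K)⁻¹ ∈ s → φ x ≠ 0 := fun x hx hx' h2 => by
    have e1 : x * ⟨_, Algebra.subset_adjoin hx'⟩ = 1 := Subtype.ext (mul_inv_cancel₀ hx)
    have e2 := congrArg φ e1
    rw [map_mul, h2, zero_mul, map_one] at e2
    exact zero_ne_one e2
  let e' : MonoidAlgebra (Algebra.adjoin ℚ s) G := .ofCoeff (Finsupp.onFinset e.coeff.support
    (fun w => ⟨e.coeff w, Algebra.subset_adjoin (Or.inl ⟨w, rfl⟩)⟩)
    fun w hw => Finsupp.mem_support_iff.2 fun h2 => hw (Subtype.ext h2))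
  let ι := MonoidAlgebra.mapRingHom G (Algebra.adjoin ℚ s).val.toRingHom
  have hι : Function.Injective ι := MonoidAlgebra.map_injective _ Subtype.val_injective
  have hc : ∀ (x : MonoidAlgebra (Algebra.adjoin ℚ s) G) w, (x.coeff w : K) = (ι x).coeff w := fun x w =>
    (MonoidAlgebra.coeff_mapRingHom (Algebra.adjoin ℚ s).val.toRingHom x w).symm
  have hιe : ι e' = e := MonoidAlgebra.ext (Finsupp.ext fun w => (hc e' w).symm)
  have he' : e' * e' = e' := hι (by rw [map_mul, hιe, he])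
  rcases cplx h hG (f := MonoidAlgebra.mapRingHom G φ e') (by rw [← map_mul, he']) with h2 | h2
  · refine hφ (e'.coeff a) ha (Or.inr (Or.inl rfl)) ?_
    rw [← MonoidAlgebra.coeff_mapRingHom, h2]
    rfl
  · have e3 : ((e' - 1).coeff b : K) = (e - 1).coeff b := by rw [hc, map_sub, hιe, map_one]
    refine hφ ((e' - 1).coeff b) (e3 ▸ hb) (e3 ▸ Or.inr (Or.inr rfl)) ?_
    rw [← MonoidAlgebra.coeff_mapRingHom, map_sub, h2, map_one, sub_self]
    rfl

end Z

theorem stZ : StZ := by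
  intro h G _ hG R _ _ _ e he
  let ι := MonoidAlgebra.mapRingHom G (algebraMap R (FractionRing R))
  have hι : Function.Injective ι := MonoidAlgebra.map_injective _ (IsFractionRing.injective R (FractionRing R))
  rcases Z.field h hG (e := ι e) (by rw [← map_mul, he]) with h2 | h2
  · exact Or.inl (hι (h2.trans (map_zero ι).symm))
  · exact Or.inr (hι (h2.trans (map_one ι).symm))

end Crest.Agent.R192
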